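import Vale.Agent.P091.TOP.Props
import Vale.Agent.P091.CH.H66.LightN

/-!
# P091, TOP: the stopping scale, the heavy tiles, and the light part (helper847)

For every point `x` the stopping scale `κ x ≤ cap` is the first scale at which the tile of `x` is
dominated by a maximal heavy tile; below it the tile sum is bounded by P_LIGHTN, above it the
frequency of `x` is frozen up to `12 · 2^κ`.
-/

set_option autoImplicit false

open Finset

noncomputable section

namespace Vale.Agent.P091.TOP.H847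

open Vale.Agent.P091.CH

variable {K : ℕ}

theorem exists_phase (z : ℂ) : ∃ θ : ℂ, ‖θ‖ ≤ 1 ∧ θ * z = ‖z‖ := by
  by_cases hz : z = 0
  · exact ⟨0, by simp, by simp [hz]⟩
  · refine ⟨(starRingEnd ℂ) z / ‖z‖, ?_, ?_⟩
    · rw [norm_div, RCLike.norm_conj, Complex.norm_real, norm_norm, div_self (norm_ne_zero_iff.2 hz)]
    · have hz' : (‖z‖ : ℂ) ≠ 0 := by
        rw [Ne, Complex.ofReal_eq_zero]
        exact norm_ne_zero_iff.2 hz
      rw [div_mul_eq_mul_div, mul_comm ((starRingEnd ℂ) z), Complex.mul_conj,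
        Complex.normSq_eq_norm_sq]
      push_cast
      field_simp

/-- `N1` lies in the middle half -/
theorem N1_mid {N : ℕ} (hK : 8 ≤ K) (hN : 8 * (N + 1) ≤ 2 ^ K) :
    (2:ℤ) ^ K ≤ 4 * N1 K N ∧ 4 * N1 K N < 3 * 2 ^ K := by
  have e1 : (2:ℤ) ^ K = 2 * 2 ^ (K - 1) := by
    rw [← pow_succ']
    congr 1
    omega
  have h1 : 8 * ((N:ℤ) + 1) ≤ 2 ^ K := by exact_mod_cast hN
  have h2 : (0:ℤ) < 2 ^ (K - 1) := by positivity
  unfold N1 MM
  constructor <;> omega

theorem Dom_near {k : ℕ} {N : ℤ} {x : X K} {u : Tile} (hk : k ≤ K)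
    (h : Dom (⟨k, x.val / 2 ^ (K - k), N / 2 ^ k⟩ : Tile) u) :
    u.k ≤ k ∧ u.j * 2 ^ (K - u.k) ≤ x.val ∧ x.val < (u.j + 1) * 2 ^ (K - u.k) ∧
      |N - u.l * 2 ^ u.k| ≤ 12 * 2 ^ k := by
  obtain ⟨h1, h2, h3⟩ := h
  simp only at h1 h2 h3
  have e1 : x.val / 2 ^ (K - u.k) = u.j := by
    rw [← h2, Nat.div_div_eq_div_mul, ← pow_add]
    congr 2
    omega
  refine ⟨h1, ?_, ?_, ?_⟩
  · rw [← e1]
    exact Nat.div_mul_le_self _ _
  · rw [← e1]
    have := Nat.lt_div_mul_add (a := x.val) (b := 2 ^ (K - u.k)) (by positivity)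
    calc x.val < x.val / 2 ^ (K - u.k) * 2 ^ (K - u.k) + 2 ^ (K - u.k) := this
      _ = _ := by ring
  · have p1 : (0:ℤ) < 2 ^ k := by positivity
    have p2 : (0:ℤ) < 2 ^ (k - u.k) := by positivity
    have p3 : (0:ℤ) < 2 ^ u.k := by positivity
    have e2 : (2:ℤ) ^ k = 2 ^ (k - u.k) * 2 ^ u.k := by
      rw [← pow_add]
      congr 1
      omega
    set q := N / 2 ^ k with hq
    set r := N % 2 ^ k with hr
    set q' := u.l / 2 ^ (k - u.k) with hq'
    set r' := u.l % 2 ^ (k - u.k) with hr'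
    have d1 : 2 ^ k * q + r = N := Int.mul_ediv_add_emod _ _
    have d2 : 2 ^ (k - u.k) * q' + r' = u.l := Int.mul_ediv_add_emod _ _
    have r1 : 0 ≤ r := Int.emod_nonneg _ p1.ne'
    have r2 : r < 2 ^ k := Int.emod_lt_of_pos _ p1
    have r3 : 0 ≤ r' := Int.emod_nonneg _ p2.ne'
    have r4 : r' + 1 ≤ 2 ^ (k - u.k) := Int.emod_lt_of_pos _ p2
    have d3 : u.l * 2 ^ u.k = 2 ^ k * q' + r' * 2 ^ u.k := by
      rw [← d2, e2]
      ring
    have r5 : 0 ≤ r' * 2 ^ u.k := mul_nonneg r3 p3.le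
    have r6 : r' * 2 ^ u.k ≤ 2 ^ k := by
      rw [e2]
      exact mul_le_mul_of_nonneg_right (by linarith) p3.le
    rw [d3, ← d1]
    rw [abs_le] at h3 ⊢
    have h4 : -11 * 2 ^ k ≤ (q' - q) * 2 ^ k := mul_le_mul_of_nonneg_right (by linarith) p1.le
    have h5 : (q' - q) * 2 ^ k ≤ 11 * 2 ^ k := mul_le_mul_of_nonneg_right h3.2 p1.le
    constructor <;> nlinarith

open Classical in
/-- CAP + LIGHT -/
theorem cap_light (hM : P_MSU) (hL : P_LIGHTN) : ∃ C : ℝ, 0 ≤ C ∧ ∀ (D : ℝ) (K cap : ℕ)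
    (p : X K → ℝ) (N : X K → ℕ), 0 ≤ D → 8 ≤ K → cap + 6 ≤ K → (∀ x, 0 ≤ p x) →
    (∀ x, p x ≤ Real.exp D) → (∀ x, 8 * (N x + 1) ≤ 2 ^ K) →
    ∃ (U : Finset Tile) (κ : X K → ℕ) (u : X K → Option Tile),
      (∀ s ∈ U, s.k + 6 ≤ K ∧ s.j < 2 ^ s.k) ∧
      (∑ s ∈ U, s.len ≤ C * Real.exp (4 * D)) ∧
      (∀ x, κ x ≤ cap) ∧ (∀ x, u x = none → κ x = cap) ∧
      (∀ x s, u x = some s → s ∈ U ∧ κ x < cap ∧ s.k ≤ κ x ∧
        s.j * 2 ^ (K - s.k) ≤ x.val ∧ x.val < (s.j + 1) * 2 ^ (K - s.k) ∧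
        |N1 K (N x) - s.l * 2 ^ s.k| ≤ 12 * 2 ^ κ x) ∧
      (∀ W : Finset (X K),
        (∑ x ∈ W, ‖tiles (κ x) (N1 K (N x)) (fM p) x‖) / 2 ^ K ≤ C) := by
  obtain ⟨C1, hC1⟩ := hM
  obtain ⟨M, hM0, hMb⟩ := H420.exists_fwd_bound
  obtain ⟨C2, hC2⟩ := hL (2 * M)
  refine ⟨max |C1| (2 * |C2|), le_trans (abs_nonneg _) (le_max_left _ _), ?_⟩
  intro D K cap p N hD hK hcap hp0 hp1 hN
  set Nx : X K → ℤ := fun x => N1 K (N x) with hNx
  have hmid : ∀ x, (2:ℤ) ^ K ≤ 4 * Nx x ∧ 4 * Nx x < 3 * 2 ^ K := fun x => N1_mid hK (hN x)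
  set P : Finset Tile := (univ ×ˢ range cap).image (fun q : X K × ℕ => tlx q.2 Nx q.1) with hP
  have hPok : ∀ s ∈ P, s.Ok K := by
    intro s hs
    obtain ⟨q, hq, rfl⟩ := mem_image.1 hs
    have hq2 : q.2 < cap := mem_range.1 (mem_product.1 hq).2
    refine H66.tl_ok (K := K) (k := q.2) (j := q.1.val / 2 ^ (K - q.2)) (by omega) ?_
      (hmid q.1).1 (hmid q.1).2
    rw [Nat.div_lt_iff_lt_mul (by positivity), ← pow_add]
    calc q.1.val < 2 ^ K := ZMod.val_lt _
      _ = 2 ^ (q.2 + (K - q.2)) := by congr 1; omega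
  have hμ : (0:ℝ) < Real.exp (-(4 * D)) := Real.exp_pos _
  obtain ⟨U, hU1, hU2, hU3⟩ := hC1 K univ Nx P (Real.exp (-(4 * D))) hPok hμ
  have hmu : mu (univ : Finset (X K)) = 1 := by
    unfold mu
    rw [card_univ, ZMod.card]
    push_cast
    exact div_self (by positivity)
  -- the stopping scale
  set κ : X K → ℕ := fun x => if h : ∃ k, k < cap ∧ ∃ u ∈ U, Dom (tlx k Nx x) u then Nat.find h
    else cap with hκ
  set u : X K → Option Tile := fun x => if h : ∃ k, k < cap ∧ ∃ u ∈ U, Dom (tlx k Nx x) u then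
    some (Nat.find_spec h).2.choose else none with hu
  have hκcap : ∀ x, κ x ≤ cap := by
    intro x
    rw [hκ]
    dsimp only
    split_ifs with h
    · exact (Nat.find_spec h).1.le
    · exact le_rfl
  refine ⟨U, κ, u, fun s hs => ⟨(hU1 s hs).1, (hU1 s hs).2.1⟩, ?_, hκcap, ?_, ?_, ?_⟩
  · rw [hmu, mul_one] at hU3
    have h1 : (∑ s ∈ U, s.len) = (∑ s ∈ U, s.len) * Real.exp (-(4 * D)) * Real.exp (4 * D) := by
      rw [mul_assoc, ← Real.exp_add]
      simp
    rw [h1]
    refine mul_le_mul_of_nonneg_right ?_ (Real.exp_pos _).le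
    exact hU3.trans ((le_abs_self _).trans (le_max_left _ _))
  · intro x hx
    rw [hu] at hx
    dsimp only at hx
    rw [hκ]
    dsimp only
    split_ifs at hx ⊢
    rfl
  · intro x s hx
    rw [hu] at hx
    dsimp only at hx
    by_cases h : ∃ k, k < cap ∧ ∃ u ∈ U, Dom (tlx k Nx x) u
    · rw [dif_pos h] at hx
      have hs : (Nat.find_spec h).2.choose = s := by simpa using hx
      have hκx : κ x = Nat.find h := by rw [hκ]; exact dif_pos h
      have h1 := (Nat.find_spec h).2.choose_spec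
      rw [hs] at h1
      have h2 : Nat.find h < cap := (Nat.find_spec h).1
      rw [hκx]
      have h3 := Dom_near (K := K) (N := Nx x) (x := x) (u := s) (by omega) h1.2
      exact ⟨h1.1, h2, h3.1, h3.2.1, h3.2.2.1, h3.2.2.2⟩
    · rw [dif_neg h] at hx
      exact absurd hx (by simp)
  · intro W
    choose θ hθ1 hθ2 using fun x => exists_phase (tiles (κ x) (N1 K (N x)) (fM p) x)
    have hstop : StopLe univ Nx κ (Real.exp (-(4 * D))) := by
      intro x _ k hk v hv
      have hkc : k < cap := lt_of_lt_of_le hk (hκcap x)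
      have hmem : tlx k Nx x ∈ P := by
        rw [hP]
        exact mem_image.2 ⟨(x, k), mem_product.2 ⟨mem_univ _, mem_range.2 hkc⟩, rfl⟩
      rcases hU2 _ hmem with h | ⟨w, hw, hw2⟩
      · exact h v hv
      · exfalso
        have hex : ∃ k, k < cap ∧ ∃ u ∈ U, Dom (tlx k Nx x) u := ⟨k, hkc, w, hw, hw2⟩
        have hκx : κ x = Nat.find hex := by rw [hκ]; exact dif_pos hex
        rw [hκx] at hk
        exact Nat.find_min hex hk ⟨hkc, w, hw, hw2⟩
    have key := hC2 H420.psi H420.psit (H420.isSym_psi hMb hM0) (H420.isSym_psit hMb hM0) K hK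
      (fM p) (fun x => if x ∈ W then θ x else 0) Nx κ univ (Real.exp (-(4 * D))) (Real.exp D)
      hμ (Real.exp_le_one_iff.2 (by linarith)) ?_ ?_ hmid (fun x => by have := hκcap x; omega)
      hstop
    · have e1 : (fun x => (if x ∈ W then θ x else 0) * ∑ r ∈ range 8, ∑ k ∈ range (κ x),
          ∑ j ∈ range (2 ^ k), (8:ℂ)⁻¹ * (tl k j (Nx x)).len * co H420.psi r (fM p)
            (tl k j (Nx x)) * pk H420.psit r (tl k j (Nx x)) x)
          = fun x : X K => ((if x ∈ W then ‖tiles (κ x) (N1 K (N x)) (fM p) x‖ else 0 : ℝ) : ℂ) := by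
        funext x
        by_cases hx : x ∈ W
        · rw [if_pos hx, if_pos hx]
          exact hθ2 x
        · rw [if_neg hx, if_neg hx, zero_mul]
          simp
      rw [e1] at key
      have e2 : aveC (fun x : X K =>
          ((if x ∈ W then ‖tiles (κ x) (N1 K (N x)) (fM p) x‖ else 0 : ℝ) : ℂ))
          = (((∑ x ∈ W, ‖tiles (κ x) (N1 K (N x)) (fM p) x‖) / 2 ^ K : ℝ) : ℂ) := by
        unfold aveC
        rw [← Complex.ofReal_sum, ← sum_filter]
        push_cast
        congr 2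
        ext x
        simp
      rw [e2, Complex.norm_real, Real.norm_eq_abs] at key
      refine (le_abs_self _).trans (key.trans ?_)
      have h1 : Real.exp (-(4 * D)) ^ (1 / 4 : ℝ) = Real.exp (-D) := by
        rw [← Real.exp_mul]
        congr 1
        ring
      have h2 : √(ave (fun x => ‖fM p x‖ ^ 2)) ≤ Real.exp D := by
        rw [Real.sqrt_le_left (Real.exp_pos _).le]
        have h3 : ∀ x, ‖fM p x‖ ^ 2 ≤ Real.exp D ^ 2 := by
          intro x
          have h4 : ‖fM p x‖ = p x := by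
            unfold fM
            rw [norm_mul, H420.norm_ch, one_mul, Complex.norm_real, Real.norm_eq_abs,
              abs_of_nonneg (hp0 x)]
          rw [h4]
          exact pow_le_pow_left₀ (hp0 x) (hp1 x) 2
        calc ave (fun x => ‖fM p x‖ ^ 2) ≤ ave (fun _ : X K => Real.exp D ^ 2) :=
              H420.ave_mono h3
          _ = Real.exp D ^ 2 := by
              unfold ave
              rw [sum_const, card_univ, ZMod.card, nsmul_eq_mul]
              push_cast
              field_simp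
      calc C2 * Real.exp (-(4 * D)) ^ (1 / 4 : ℝ)
            * (√(ave fun x => ‖fM p x‖ ^ 2) + Real.exp D)
          ≤ |C2| * Real.exp (-D) * (Real.exp D + Real.exp D) := by
            rw [h1]
            have h5 : C2 * Real.exp (-D) ≤ |C2| * Real.exp (-D) :=
              mul_le_mul_of_nonneg_right (le_abs_self _) (Real.exp_pos _).le
            have h6 : 0 ≤ √(ave fun x => ‖fM p x‖ ^ 2) + Real.exp D :=
              add_nonneg (Real.sqrt_nonneg _) (Real.exp_pos _).le
            refine (mul_le_mul_of_nonneg_right h5 h6).trans ?_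
            refine mul_le_mul_of_nonneg_left (by linarith) (by positivity)
        _ = 2 * |C2| := by
            have : Real.exp (-D) * Real.exp D = 1 := by rw [← Real.exp_add]; simp
            calc |C2| * Real.exp (-D) * (Real.exp D + Real.exp D)
                = 2 * |C2| * (Real.exp (-D) * Real.exp D) := by ring
              _ = _ := by rw [this, mul_one]
        _ ≤ _ := le_max_right _ _
    · intro x
      unfold fM
      rw [norm_mul, H420.norm_ch, one_mul, Complex.norm_real, Real.norm_eq_abs,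
        abs_of_nonneg (hp0 x)]
      exact hp1 x
    · intro x
      rw [if_pos (mem_univ x)]
      split_ifs
      · exact hθ1 x
      · simp

end Vale.Agent.P091.TOP.H847
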