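import Vale.Agent.P091.TOP.Props
import Vale.Agent.P091.CH.H847.Phi

/-!
# P091, TOP: row S3 (kernel of the smooth step)
-/

namespace Vale.Agent.P091.TOP.H847

open Vale.Agent.P091.CH Vale.Agent.P091.CH.H847

theorem p_S3 : P_S3 := by
  obtain ⟨A, hA⟩ := row_S3
  refine ⟨A, ?_⟩
  intro K κ N hκ h0 h1
  have hN : (0:ℤ) ≤ N := le_trans (by positivity) h0
  obtain ⟨φ, h2, h3, h4⟩ := hA K κ N hκ hN h1 h0
  exact ⟨φ, h2, h3, fun t _ => h4 t⟩

end Vale.Agent.P091.TOP.H847
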