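import Vale.Agent.P091.TOP.Top0
import Vale.Agent.P091.TOP.H39.Cap

/-!
# P091, TOP: `cap_of : P_MSU → P_CAP` (helper847)
-/

set_option autoImplicit false

open Finset

noncomputable section

namespace Vale.Agent.P091.TOP.H847

open Vale.Agent.P091.CH

theorem N1_mid' {K N : ℕ} (hK : 1 ≤ K) (hN : 8 * (N + 1) ≤ 2 ^ K) :
    (2:ℤ) ^ K ≤ 4 * N1 K N ∧ 4 * N1 K N < 3 * 2 ^ K := by
  have e1 : (2:ℤ) ^ K = 2 * 2 ^ (K - 1) := by
    rw [← pow_succ']
    congr 1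
    omega
  have h1 : 8 * ((N:ℤ) + 1) ≤ 2 ^ K := by exact_mod_cast hN
  have h2 : (0:ℤ) < 2 ^ (K - 1) := by positivity
  unfold N1 MM
  constructor <;> omega

/-- the tiles which stop a point -/
def Used {K : ℕ} (k0 : ℕ) (N : X K → ℕ) (κ : X K → ℕ) (s : Tile) : Prop :=
  ∃ x : X K, κ x < k0 ∧ s.k ≤ κ x ∧ x.val / 2 ^ (K - s.k) = s.j ∧
    |N1 K (N x) - s.l * 2 ^ s.k| ≤ 12 * 2 ^ κ x

/-- letters: used tiles and the letter `0` -/
abbrev QT {K : ℕ} (k0 : ℕ) (N : X K → ℕ) (κ : X K → ℕ) (T : Finset Tile) : Type :=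
  {s : Tile // s ∈ T ∧ Used k0 N κ s}

instance {K : ℕ} (k0 : ℕ) (N : X K → ℕ) (κ : X K → ℕ) (T : Finset Tile) :
    Finite (QT k0 N κ T) :=
  Set.Finite.subset (s := (T : Set Tile)) T.finite_toSet (fun s hs => hs.1) |>.to_subtype

open Classical in
theorem cap_of (hM : P_MSU) : P_CAP := by
  obtain ⟨C1, hC1⟩ := H39.cap hM
  refine ⟨3 * (|C1| + 1), by positivity, ?_⟩
  intro K k0 N0 N δ hδ hδ1 hk0 hN0 hN0' hN
  have hNx : ∀ x, 8 * (N x + 1) ≤ 2 ^ K := fun x => le_trans (by have := hN x; omega) hN0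
  have hmid := fun x => N1_mid' (K := K) (N := N x) (by omega) (hNx x)
  obtain ⟨T, κ, hT1, hT2, hκ, hstop, hcap⟩ :=
    hC1 K (fun x => N1 K (N x)) δ k0 hk0 hδ hmid
  have hex : ∀ x : X K, ∃ o : Option (QT k0 N κ T),
      (o = none ∧ κ x = k0) ∨ ∃ s, o = some s ∧ s.1.k ≤ κ x ∧
      x.val / 2 ^ (K - s.1.k) = s.1.j ∧ |N1 K (N x) - s.1.l * 2 ^ s.1.k| ≤ 12 * 2 ^ κ x := by
    intro x
    rcases lt_or_ge (κ x) k0 with h | h
    · obtain ⟨s, hs, h1, h2, h3⟩ := hcap x h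
      exact ⟨some ⟨s, hs, ⟨x, h, h1, h2, h3⟩⟩, Or.inr ⟨_, rfl, h1, h2, h3⟩⟩
    · exact ⟨none, Or.inl ⟨rfl, le_antisymm (hκ x) h⟩⟩
  choose u hu using hex
  letI : Fintype (QT k0 N κ T) := Fintype.ofFinite _
  let c : Option (QT k0 N κ T) → ℤ := fun o => match o with
    | none => 0
    | some s => s.1.l * 2 ^ s.1.k - MM K
  let V : Option (QT k0 N κ T) → Finset ℤ := fun o => match o with
    | none => Ico (-2 ^ K) (2 * 2 ^ K)
    | some s => Ico (((s.1.j : ℤ) - 1) * 2 ^ (K - s.1.k)) (((s.1.j : ℤ) + 2) * 2 ^ (K - s.1.k))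
  have hk0K : ∀ x, κ x ≤ K := fun x => (hκ x).trans (by omega)
  have h2k0 : (N0 : ℤ) + 1 ≤ 2 ^ k0 := by exact_mod_cast hN0'
  refine ⟨κ, Option (QT k0 N κ T), inferInstance, c, V, u, hκ, hstop, ?_, ?_, ?_, ?_⟩
  · rintro (_ | s)
    · show |(0:ℤ)| ≤ _
      rw [abs_zero]
      positivity
    · obtain ⟨x, h1, h2, h3, h4⟩ := s.2.2
      show |s.1.l * 2 ^ s.1.k - MM K| ≤ _
      have h5 : (2:ℤ) ^ κ x ≤ 2 ^ k0 := pow_le_pow_right₀ (by norm_num) h1.le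
      have h6 : N1 K (N x) = MM K + ((N x : ℤ) + 1) := rfl
      have h7 : (N x : ℤ) ≤ N0 := by exact_mod_cast hN x
      rw [abs_le] at h4 ⊢
      constructor <;> omega
  · intro x
    rcases hu x with ⟨h1, h2⟩ | ⟨s, h1, h2, h3, h4⟩
    · rw [h1]
      show |(N x : ℤ) + 1 - 0| ≤ _
      have h7 : (N x : ℤ) ≤ N0 := by exact_mod_cast hN x
      rw [h2, sub_zero, abs_of_nonneg (by positivity)]
      linarith
    · rw [h1]
      show |(N x : ℤ) + 1 - (s.1.l * 2 ^ s.1.k - MM K)| ≤ _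
      have h6 : N1 K (N x) = MM K + ((N x : ℤ) + 1) := rfl
      rw [h6] at h4
      rw [show (N x : ℤ) + 1 - (s.1.l * 2 ^ s.1.k - MM K)
        = MM K + ((N x : ℤ) + 1) - s.1.l * 2 ^ s.1.k by ring]
      exact h4
  · intro x s L hL hs1 hs2
    have hx : (x.val : ℤ) < 2 ^ K := by exact_mod_cast ZMod.val_lt x
    have hx0 : (0:ℤ) ≤ x.val := by positivity
    have hL' : (L : ℤ) ≤ 2 ^ (K - κ x) := by exact_mod_cast hL
    rcases hu x with ⟨h1, h2⟩ | ⟨t, h1, h2, h3, h4⟩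
    · rw [h1]
      show Ico s (s + L) ⊆ Ico (-2 ^ K) (2 * 2 ^ K)
      have h5 : (2:ℤ) ^ (K - κ x) ≤ 2 ^ K := pow_le_pow_right₀ (by norm_num) (by omega)
      apply Ico_subset_Ico <;> omega
    · rw [h1]
      show Ico s (s + L) ⊆ Ico (((t.1.j : ℤ) - 1) * 2 ^ (K - t.1.k))
        (((t.1.j : ℤ) + 2) * 2 ^ (K - t.1.k))
      have h5 : (2:ℤ) ^ (K - κ x) ≤ 2 ^ (K - t.1.k) :=
        pow_le_pow_right₀ (by norm_num) (by omega)
      have h6 : (t.1.j : ℤ) * 2 ^ (K - t.1.k) ≤ x.val := by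
        have : t.1.j * 2 ^ (K - t.1.k) ≤ x.val := by
          rw [← h3]
          exact Nat.div_mul_le_self _ _
        exact_mod_cast this
      have h7 : (x.val : ℤ) < ((t.1.j : ℤ) + 1) * 2 ^ (K - t.1.k) := by
        have : x.val < (t.1.j + 1) * 2 ^ (K - t.1.k) := by
          rw [← h3]
          exact (Nat.div_lt_iff_lt_mul (by positivity)).1 (Nat.lt_succ_self _)
        exact_mod_cast this
      rw [add_mul, one_mul] at h7
      rw [sub_mul, add_mul, one_mul]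
      apply Ico_subset_Ico <;> omega
  · rw [Fintype.sum_option]
    have e0 : ((V none).card : ℝ) = 3 * 2 ^ K := by
      show ((Ico (-2 ^ K : ℤ) (2 * 2 ^ K)).card : ℝ) = _
      rw [Int.card_Ico]
      have : (2 * 2 ^ K - -2 ^ K : ℤ) = ((3 * 2 ^ K : ℕ) : ℤ) := by push_cast; ring
      rw [this, Int.toNat_natCast]
      push_cast
      ring
    have e1 : ∀ s : QT k0 N κ T, ((V (some s)).card : ℝ) = 3 * 2 ^ K * s.1.len := by
      intro s
      show ((Ico (((s.1.j : ℤ) - 1) * 2 ^ (K - s.1.k))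
        (((s.1.j : ℤ) + 2) * 2 ^ (K - s.1.k))).card : ℝ) = _
      rw [Int.card_Ico]
      have : (((s.1.j : ℤ) + 2) * 2 ^ (K - s.1.k) - ((s.1.j : ℤ) - 1) * 2 ^ (K - s.1.k))
          = ((3 * 2 ^ (K - s.1.k) : ℕ) : ℤ) := by push_cast; ring
      rw [this, Int.toNat_natCast]
      have hsk : s.1.k ≤ K := by have := (hT1 s.1 s.2.1).1; omega
      unfold Tile.len
      have e2 : (2:ℝ) ^ K = 2 ^ (K - s.1.k) * 2 ^ s.1.k := by
        rw [← pow_add]
        congr 1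
        omega
      rw [e2]
      push_cast
      field_simp
    have e3 : ∑ s : QT k0 N κ T, s.1.len ≤ ∑ s ∈ T, s.len := by
      have h1 : ∑ s : QT k0 N κ T, s.1.len = ∑ s ∈ univ.image (fun s : QT k0 N κ T => s.1), s.len := by
        rw [sum_image]
        intro a _ b _ hab
        exact Subtype.ext hab
      rw [h1]
      refine sum_le_sum_of_subset_of_nonneg ?_ ?_
      · intro s hs
        obtain ⟨t, _, rfl⟩ := mem_image.1 hs
        exact t.2.1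
      · intro s _ _
        unfold Tile.len
        positivity
    rw [e0, sum_congr rfl (fun s _ => e1 s), ← mul_sum]
    have e4 : (∑ s : QT k0 N κ T, s.1.len) * δ ≤ |C1| :=
      (mul_le_mul_of_nonneg_right e3 hδ.le).trans (hT2.trans (le_abs_self _))
    have hp : (0:ℝ) < 2 ^ K := by positivity
    calc (3 * 2 ^ K + 3 * 2 ^ K * ∑ s : QT k0 N κ T, s.1.len) * δ
        = 3 * 2 ^ K * δ + 3 * 2 ^ K * ((∑ s : QT k0 N κ T, s.1.len) * δ) := by ring
      _ ≤ 3 * 2 ^ K * 1 + 3 * 2 ^ K * |C1| := by gcongr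
      _ = 3 * (|C1| + 1) * 2 ^ K := by ring

end Vale.Agent.P091.TOP.H847
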