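import Vale.Agent.P091.TOP.Top0
import Vale.Agent.P091.TOP.H69.Letter

/-!
# P091, TOP: `gu_of : GRIDROW → P_LET → P_GU` (helper847)
-/

set_option autoImplicit false

open Finset

noncomputable section

namespace Vale.Agent.P091.TOP.H847

open Vale.Agent.P091.CH

theorem norm_e (t : ℝ) : ‖Spec.e t‖ = 1 := by
  unfold Spec.e
  rw [show (2 * Real.pi * Complex.I * t : ℂ) = ((2 * Real.pi * t : ℝ) : ℂ) * Complex.I by
    push_cast; ring]
  exact Complex.norm_exp_ofReal_mul_I _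

theorem log_sq_le {D : ℝ} (hD : 2 ≤ D) : Real.log D ^ 2 ≤ 4 * D := by
  have h0 : 0 < √D := Real.sqrt_pos.2 (by linarith)
  have h1 : Real.log (√D) ≤ √D - 1 := Real.log_le_sub_one_of_pos h0
  have h2 : Real.log D = 2 * Real.log (√D) := by
    rw [Real.log_sqrt (by linarith)]
    ring
  have h3 : 0 ≤ Real.log D := Real.log_nonneg (by linarith)
  have h4 : Real.log D ≤ 2 * √D := by linarith
  calc Real.log D ^ 2 ≤ (2 * √D) ^ 2 := pow_le_pow_left₀ h3 h4 2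
    _ = 4 * D := by rw [mul_pow, Real.sq_sqrt (by linarith)]; ring

/-- interval sums of integers, shifted -/
theorem sum_Ico_shift (s : ℤ) (L : ℕ) (F : ℤ → ℝ) :
    ∑ y ∈ Ico s (s + L), F y = ∑ v ∈ Ico (0:ℤ) L, F (s + v) := by
  refine (sum_nbij' (fun v => s + v) (fun y => y - s) ?_ ?_ ?_ ?_ ?_).symm
  · intro v hv
    rw [mem_Ico] at hv ⊢
    omega
  · intro v hv
    rw [mem_Ico] at hv ⊢
    omega
  · intro v _
    ring
  · intro v _
    ring
  · intro v _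
    rfl

theorem gu_of (hG : H750.GRIDROW) (hLet : P_LET) : P_GU := by
  intro C0 hC0
  obtain ⟨C1, hC1, hG⟩ := hG C0 hC0
  obtain ⟨C2, hC2⟩ := hLet 3
  refine ⟨2 * C1 + 2 * |C2|, by positivity, ?_⟩
  intro D hD K ρ k0 r a p N κ U _ c V u W hk0 hr1 hr2 hp0 hp1 hpa hκ hc hNc hV hVs hW
  have h2K : (0:ℝ) < 2 ^ K := by positivity
  have hr0 : 1 ≤ r := le_trans Nat.one_le_two_pow hr1
  set m := K - ρ - 1 with hm
  have hm1 : m + 1 = K - ρ := by omega
  have hL1 : 2 ^ K ≤ r * 2 ^ (m + 1) := by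
    rw [hm1]
    calc 2 ^ K = 2 ^ ρ * 2 ^ (K - ρ) := by rw [← pow_add]; congr 1; omega
      _ ≤ r * 2 ^ (K - ρ) := Nat.mul_le_mul_right _ hr1
  have hL2 : r * 2 ^ (m + 1) ≤ 2 * 2 ^ K := by
    rw [hm1]
    calc r * 2 ^ (K - ρ) ≤ 2 ^ (ρ + 1) * 2 ^ (K - ρ) := Nat.mul_le_mul_right _ hr2.le
      _ = 2 * 2 ^ K := by rw [← pow_add, ← pow_succ']; congr 1; omega
  have hL1' : (2:ℝ) ^ K ≤ ((r * 2 ^ (m + 1) : ℕ) : ℝ) := by exact_mod_cast hL1
  have hL2' : ((r * 2 ^ (m + 1) : ℕ) : ℝ) ≤ 2 * 2 ^ K := by exact_mod_cast hL2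
  set P : ℤ → ℝ := fun y => p (y : X K) with hP
  set W' : Finset ℤ := W.image (fun x : X K => (x.val : ℤ)) with hW'
  have hval : ∀ x : X K, ((x.val : ℤ) : X K) = x := by
    intro x
    rw [Int.cast_natCast, ZMod.natCast_zmod_val]
  have hinj : Set.InjOn (fun x : X K => (x.val : ℤ)) (W : Set (X K)) := by
    intro x _ y _ hxy
    have h1 : (x.val : ℤ) = y.val := hxy
    have h2 : x.val = y.val := by exact_mod_cast h1
    exact ZMod.val_injective _ h2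
  -- the product of `r` and the top scale at `x`
  have hprod : ∀ x : X K, r * 2 ^ (K - ρ - κ x - 3) * 4 ≤ 2 ^ (K - κ x) := by
    intro x
    have := hκ x
    calc r * 2 ^ (K - ρ - κ x - 3) * 4 ≤ 2 ^ (ρ + 1) * 2 ^ (K - ρ - κ x - 3) * 4 := by gcongr
      _ = 2 ^ (K - κ x) := by
        rw [← pow_add, show (4:ℕ) = 2 ^ 2 by norm_num, ← pow_add]
        congr 1
        omega
  have key := hG D hD r m (2 ^ K) a P hr0 hL1 (fun y => hp0 _) (fun y => hp1 _) ?_ U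
    (fun k => (c k : ℝ) / 2 ^ K) V (fun z => u (z : X K)) (fun z => K - ρ - κ (z : X K) - 3) W'
    ?_ ?_ ?_ ?_ ?_ ?_
  · -- conclusion
    have e1 : ∀ x ∈ W, ‖PET.Sh r (K - ρ - κ x - 3) a (Fc p ((N x : ℝ) + 1)) (x.val : ℤ)‖
        ≤ ‖PET.Sh r (K - ρ - κ x - 3) a (Fc p (c (u x) : ℝ)) (x.val : ℤ)‖ + |C2| * MX p x := by
      intro x _
      have h1 := hC2 K r (K - ρ - κ x - 3) a p ((N x : ℝ) + 1) (c (u x) : ℝ) x hr0 ?_ hp0 ?_
      · have h2 : 0 ≤ MX p x := H69.MX_nonneg p x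
        have h3 : ‖Spec.e (((N x : ℝ) + 1) * x.val / 2 ^ K) *
            PET.Sh r (K - ρ - κ x - 3) a (Fc p ((N x : ℝ) + 1)) (x.val : ℤ)‖
            = ‖PET.Sh r (K - ρ - κ x - 3) a (Fc p ((N x : ℝ) + 1)) (x.val : ℤ)‖ := by
          rw [norm_mul, norm_e, one_mul]
        have h4 : ‖Spec.e ((c (u x) : ℝ) * x.val / 2 ^ K) *
            PET.Sh r (K - ρ - κ x - 3) a (Fc p (c (u x) : ℝ)) (x.val : ℤ)‖
            = ‖PET.Sh r (K - ρ - κ x - 3) a (Fc p (c (u x) : ℝ)) (x.val : ℤ)‖ := by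
          rw [norm_mul, norm_e, one_mul]
        rw [← h3, ← h4]
        have h5 : C2 * MX p x ≤ |C2| * MX p x := mul_le_mul_of_nonneg_right (le_abs_self _) h2
        have h6 := norm_sub_norm_le (Spec.e (((N x : ℝ) + 1) * x.val / 2 ^ K) *
            PET.Sh r (K - ρ - κ x - 3) a (Fc p ((N x : ℝ) + 1)) (x.val : ℤ))
          (Spec.e ((c (u x) : ℝ) * x.val / 2 ^ K) *
            PET.Sh r (K - ρ - κ x - 3) a (Fc p (c (u x) : ℝ)) (x.val : ℤ))
        linarith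
      · have h2 : 2 ^ (K - κ x) ≤ 2 ^ K := Nat.pow_le_pow_right (by norm_num) (by omega)
        have h3 := (hprod x).trans h2
        calc 4 * r * 2 ^ (K - ρ - κ x - 3) = r * 2 ^ (K - ρ - κ x - 3) * 4 := by ring
          _ ≤ _ := h3
      · have h1 : |((N x : ℝ) + 1) - (c (u x) : ℝ)| ≤ 12 * 2 ^ κ x := by
          have := hNc x
          exact_mod_cast this
        have h2 : (r * 2 ^ (K - ρ - κ x - 3) : ℝ) * 4 ≤ 2 ^ (K - κ x) := by
          exact_mod_cast hprod x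
        have h3 : (2:ℝ) ^ κ x * 2 ^ (K - κ x) = 2 ^ K := by
          rw [← pow_add]
          congr 1
          have := hκ x
          omega
        have h4 : (0:ℝ) ≤ r * 2 ^ (K - ρ - κ x - 3) := by positivity
        calc |((N x : ℝ) + 1) - (c (u x) : ℝ)| * (r * 2 ^ (K - ρ - κ x - 3))
            ≤ 12 * 2 ^ κ x * (r * 2 ^ (K - ρ - κ x - 3)) := mul_le_mul_of_nonneg_right h1 h4
          _ = 3 * 2 ^ κ x * (r * 2 ^ (K - ρ - κ x - 3) * 4) := by ring
          _ ≤ 3 * 2 ^ κ x * 2 ^ (K - κ x) := mul_le_mul_of_nonneg_left h2 (by positivity)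
          _ = 3 * 2 ^ K := by rw [mul_assoc, h3]
    refine (sum_le_sum e1).trans ?_
    rw [sum_add_distrib]
    have e2 : ∑ x ∈ W, ‖PET.Sh r (K - ρ - κ x - 3) a (Fc p (c (u x) : ℝ)) (x.val : ℤ)‖
        ≤ C1 * D * (r * 2 ^ (m + 1) : ℕ) := by
      refine le_trans (le_of_eq ?_) key
      rw [hW', sum_image hinj]
      refine sum_congr rfl fun x _ => ?_
      rw [hval x]
      unfold PET.Sh
      congr 1
      refine sum_congr rfl fun i _ => ?_
      congr 1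
      funext y
      unfold Fc
      simp only [hP]
      congr 3
      ring
    have e3 : ∑ x ∈ W, |C2| * MX p x ≤ 2 * |C2| * D * 2 ^ K := by
      have h1 : ∀ x ∈ W, |C2| * MX p x ≤ |C2| * (2 * D) := by
        intro x hx
        have h2 := hW x hx
        have h3 := log_sq_le hD
        exact mul_le_mul_of_nonneg_left (by linarith) (abs_nonneg _)
      have h4 : (W.card : ℝ) ≤ 2 ^ K := by
        have : W.card ≤ Fintype.card (X K) := card_le_univ W
        rw [ZMod.card] at this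
        exact_mod_cast this
      calc ∑ x ∈ W, |C2| * MX p x ≤ ∑ x ∈ W, |C2| * (2 * D) := sum_le_sum h1
        _ = W.card * (|C2| * (2 * D)) := by rw [sum_const, nsmul_eq_mul]
        _ ≤ 2 ^ K * (|C2| * (2 * D)) := mul_le_mul_of_nonneg_right h4 (by positivity)
        _ = _ := by ring
    have e4 : C1 * D * ((r * 2 ^ (m + 1) : ℕ) : ℝ) ≤ C1 * D * (2 * 2 ^ K) :=
      mul_le_mul_of_nonneg_left hL2' (by positivity)
    calc _ ≤ C1 * D * ((r * 2 ^ (m + 1) : ℕ) : ℝ) + 2 * |C2| * D * 2 ^ K := add_le_add e2 e3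
      _ ≤ C1 * D * (2 * 2 ^ K) + 2 * |C2| * D * 2 ^ K := by linarith
      _ = (2 * C1 + 2 * |C2|) * D * 2 ^ K := by ring
  · -- every top interval has mass at most twice its length
    intro s
    rw [sum_Ico_shift]
    have h1 : ∑ v ∈ Ico (0:ℤ) ((r * 2 ^ (m + 1) : ℕ) : ℤ), P (s + v)
        ≤ ∑ v ∈ Ico (0:ℤ) (((2:ℕ) : ℤ) * 2 ^ K), P (s + v) := by
      refine sum_le_sum_of_subset_of_nonneg ?_ fun v _ _ => hp0 _
      refine Ico_subset_Ico le_rfl ?_
      have : ((r * 2 ^ (m + 1) : ℕ) : ℤ) ≤ ((2 * 2 ^ K : ℕ) : ℤ) := by exact_mod_cast hL2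
      refine this.trans (le_of_eq ?_)
      push_cast
      ring
    have h2 := H69.sum_periods (K := K) s p 2
    have h3 : ∑ v ∈ Ico (0:ℤ) (((2:ℕ) : ℤ) * 2 ^ K), P (s + v) = 2 * ∑ y, p y := by
      rw [← show ((2:ℕ) : ℝ) = 2 by norm_num, ← h2]
    rw [h3] at h1
    have h4 : ∑ y, p y ≤ 2 ^ K := by
      unfold ave at hpa
      rwa [div_le_one h2K] at hpa
    linarith
  · -- W'
    intro z hz
    obtain ⟨x, _, rfl⟩ := mem_image.1 hz
    rw [mem_Ico]
    refine ⟨by positivity, ?_⟩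
    have := ZMod.val_lt x
    exact_mod_cast this
  · -- letters
    intro k
    have h1 : (K * 2 ^ (ρ + 1) * |c k| : ℤ) ≤ 2 ^ K := hc k
    have h2 : (K : ℝ) * 2 ^ (ρ + 1) * |(c k : ℝ)| ≤ 2 ^ K := by exact_mod_cast h1
    show (m : ℝ) * r * |(c k : ℝ) / 2 ^ K| ≤ 1
    rw [abs_div, abs_of_pos h2K, mul_div_assoc', div_le_one h2K]
    refine le_trans ?_ h2
    have h3 : (m : ℝ) ≤ K := by
      have : m ≤ K := by omega
      exact_mod_cast this
    have h4 : (r : ℝ) ≤ 2 ^ (ρ + 1) := by exact_mod_cast hr2.le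
    gcongr
  · intro z _
    show K - ρ - κ (z : X K) - 3 ≤ m
    omega
  · -- windows
    intro z hz hb s hs1 hs2
    obtain ⟨x, _, rfl⟩ := mem_image.1 hz
    simp only [hval] at hb hs1 hs2 ⊢
    refine hV x s _ ?_ hs1 hs2
    have h1 := hprod x
    calc r * 2 ^ (K - ρ - κ x - 3 + 1) = r * 2 ^ (K - ρ - κ x - 3) * 2 := by rw [pow_succ]; ring
      _ ≤ r * 2 ^ (K - ρ - κ x - 3) * 4 := by omega
      _ ≤ _ := h1
  · exact hVs.trans (mul_le_mul_of_nonneg_left hL1' (Real.exp_pos _).le)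
  · -- alive
    intro z hz s L _ _ hs1 hs2
    obtain ⟨x, hx, rfl⟩ := mem_image.1 hz
    rw [sum_Ico_shift]
    have h1 := H69.sum_interval_le (K := K) p hs1 hs2
    rw [hval x] at h1
    have h2 : ∑ v ∈ Ico (0:ℤ) (L:ℤ), P (s + v)
        = ∑ v ∈ Ico (0:ℤ) (L:ℤ), |p (((s + v : ℤ)) : X K)| := by
      refine sum_congr rfl fun v _ => ?_
      rw [abs_of_nonneg (hp0 _)]
    rw [h2]
    refine h1.trans ?_
    have h3 := hW x hx
    have h4 : (0:ℝ) ≤ 2 * ((L : ℤ) : ℝ) := by positivity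
    calc 2 * ((L : ℤ) : ℝ) * MX p x ≤ 2 * ((L : ℤ) : ℝ) * (1 / 2 * Real.log D ^ 2) :=
          mul_le_mul_of_nonneg_left h3 h4
      _ = Real.log D ^ 2 * L := by push_cast; ring

end Vale.Agent.P091.TOP.H847
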